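import Mathlib
import Vale.Agent.Lib.P183.Distrib

namespace Vale.Agent.Results.P183.Distributive

open Vale.Agent.Lib.P183

universe u

/-- Every (nonempty) finite distributive lattice is representable: it is isomorphic to the lattice
of all congruences of a finite algebra.  (`Representable` and `IsCongruence` are defined in
`Vale.Agent.Lib.P183.Distrib`; an order isomorphism between lattices is a lattice isomorphism.) -/
theorem result (L : Type u) [DistribLattice L] [Fintype L] [Nonempty L] : Representable L :=
  distrib_representable L

end Vale.Agent.Results.P183.Distributive
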